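import Vale.Agent.P032.S5.H483.Irr

/-!
# P032: the crossing kill

`x` on the circle about `v`, `y` on the circle about `p`, `x` and `y` at distance one.  The circles
about the points of `S(p)` near `y` cross `S(v)` near `x`.  If `y` is the end of an exact `af`-arc of
`S(p)` with the letter `d` on the other side, and every point of `S(v)` near `x` has one of the colours
`a, d, f`, then there is a contradiction (`Irr.cross_kill`).

`Irr.lens_kill`: the case of two special ends `v, p` of one circle `S(z)`.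
-/

open Set Filter Topology Metric

noncomputable section

namespace Vale.Agent.P032.Six

variable {k : ℕ} {U : Fin k → Set ℂ} {T : ℂ → Set (Fin k)}

/-- the unit circle about a point near `y` meets the unit circle about `v` near `x` -/
theorem crossing' {v y x : ℂ} (hxv : dist x v = 1) (hxy : dist x y = 1) (h1 : v ≠ y)
    (h2 : v + y ≠ 2 * x) {N : Set ℂ} (hN : N ∈ 𝓝 x) :
    ∀ᶠ y' in 𝓝 y, ∃ x' ∈ N, dist x' v = 1 ∧ dist x' y' = 1 := by
  obtain ⟨θ, hθ⟩ := exists_cis (u := x - v) (by rw [← dist_eq_norm]; exact hxv)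
  have hxθ : v + cis θ = x := by rw [← hθ]; ring
  have hcr : cr (cis θ) (v + cis θ - y) ≠ 0 := by
    rw [hxθ, ← hθ]
    exact cr_ne hxv hxy h1 h2
  have hc : ContinuousAt (fun t => v + cis t) θ :=
    (continuous_const.add continuous_cis).continuousAt
  have hpre : (fun t => v + cis t) ⁻¹' N ∈ 𝓝 θ := hc.preimage_mem_nhds (by rw [hxθ]; exact hN)
  obtain ⟨η, hη, hball⟩ := Metric.mem_nhds_iff.1 hpre
  filter_upwards [crossing (c := v) (q₀ := y) (t0 := θ) (by rw [hxθ]; exact hxy) hcr hη]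
    with y' hy'
  obtain ⟨t, ht, ht1⟩ := hy'
  exact ⟨v + cis t, hball (by rw [mem_ball, Real.dist_eq]; exact ht), dist_add_cis v t, ht1⟩

/-- a colour carried by arcs of `S(p)` accumulating at `y` is missing at points of `S(v)` near `x` -/
theorem Irr.cross_miss (h : Irr U T) {v p y x : ℂ} {Q : Set (Fin k)}
    (hxv : dist x v = 1) (hxy : dist x y = 1) (h1 : v ≠ y)
    (h2 : v + y ≠ 2 * x) (h3 : x ≠ p) (h4 : x + p ≠ 2 * y)
    (hQ : ∃ᶠ y' in 𝓝[sphere p 1] y, ∀ᶠ q in 𝓝[sphere p 1] y', Q ⊆ T q) :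
    ∃ᶠ x' in 𝓝[sphere v 1] x, ∀ i ∈ Q, i ∉ T x' := by
  rw [frequently_iff]
  intro N hN
  obtain ⟨N', hN', hsub⟩ := mem_nhdsWithin_iff_exists_mem_nhds_inter.1 hN
  -- far from the line
  have e1 : ∀ᶠ x' in 𝓝 x, x' ≠ p := isOpen_ne.mem_nhds h3
  have e2 : ∀ᶠ w in 𝓝 (x, y), w.1 + p ≠ 2 * w.2 := by
    have hcont : Continuous fun w : ℂ × ℂ => w.1 + p - 2 * w.2 := by fun_prop
    have : (fun w : ℂ × ℂ => w.1 + p - 2 * w.2) (x, y) ≠ 0 := fun hc => h4 (sub_eq_zero.1 hc)
    filter_upwards [hcont.continuousAt.eventually (isOpen_ne.mem_nhds this)] with w hw hc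
    exact hw (sub_eq_zero.2 hc)
  rw [nhds_prod_eq] at e2
  obtain ⟨pa, ha, pb, hb, hab⟩ := eventually_prod_iff.1 e2
  have hcross := crossing' hxv hxy h1 h2 (N := N' ∩ {x' | x' ≠ p ∧ pa x'})
    (inter_mem hN' (e1.and ha))
  have e3 : ∀ᶠ y' in 𝓝[sphere p 1] y, (∃ x' ∈ N' ∩ {x' | x' ≠ p ∧ pa x'},
      dist x' v = 1 ∧ dist x' y' = 1) ∧ pb y' ∧ y' ∈ sphere p 1 := by
    filter_upwards [mem_nhdsWithin_of_mem_nhds hcross, mem_nhdsWithin_of_mem_nhds hb,
      self_mem_nhdsWithin] with y' k1 k2 k3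
    exact ⟨k1, k2, k3⟩
  obtain ⟨y', hy', ⟨x', ⟨hx'N, hx'p, hx'a⟩, hx'v, hx'y⟩, hyb, hys⟩ := (hQ.and_eventually e3).exists
  refine ⟨x', hsub ⟨hx'N, hx'v⟩, fun i hi hiT => ?_⟩
  rcases h.mx.partner_line (u := p) (p := y') (v := x') (t := i) hys
    (hy'.mono fun q hq => h.sub q (hq hi)) (by rw [dist_comm]; exact hx'y) (h.sub x' hiT)
    with h5 | h5
  · exact hx'p h5
  · exact hab hx'a hyb h5

/-- **the crossing kill** -/
theorem Irr.cross_kill (h : Irr U T) {v p y x : ℂ} {a d f : Fin k}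
    (hyp : dist y p = 1) (hxv : dist x v = 1) (hxy : dist x y = 1) (h1 : v ≠ y)
    (h2 : v + y ≠ 2 * x) (h3 : x ≠ p) (h4 : x + p ≠ 2 * y)
    (hTy : T y ⊆ {a, d, f}) (hx3 : (T x).ncard ≤ 3) (hap : a ∈ T p) (hfp : f ∈ T p)
    (hS : ∃ᶠ y' in 𝓝[sphere p 1] y, ∀ᶠ q in 𝓝[sphere p 1] y', a ∈ T q ∧ f ∈ T q)
    (hd : ∃ᶠ y' in 𝓝[sphere p 1] y, ∀ᶠ q in 𝓝[sphere p 1] y', d ∈ T q)
    (hκ : ∀ᶠ x' in 𝓝[sphere v 1] x, a ∈ T x' ∨ d ∈ T x' ∨ f ∈ T x') : False := by
  have hcl : ∀ i : Fin k, (∃ᶠ x' in 𝓝[sphere v 1] x, i ∈ T x') → i ∈ T x := by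
    intro i hi
    have h5 : ∃ᶠ x' in 𝓝 x, i ∈ T x' := hi.filter_mono nhdsWithin_le_nhds
    have h6 : x ∈ closure {x' | i ∈ T x'} := mem_closure_iff_frequently.2 h5
    rwa [(h.closed i).closure_eq] at h6
  -- the `af`-side
  have hdx : d ∈ T x := by
    have h5 := h.cross_miss (Q := {a, f}) hxv hxy h1 h2 h3 h4 (hS.mono fun y' hy' =>
      hy'.mono fun q hq => by
        rintro i (rfl | rfl)
        · exact hq.1
        · exact hq.2)
    refine hcl d ((h5.and_eventually hκ).mono ?_)
    rintro x' ⟨h6, h7 | h7 | h7⟩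
    · exact absurd h7 (h6 a (Or.inl rfl))
    · exact h7
    · exact absurd h7 (h6 f (Or.inr rfl))
  -- the `d`-side
  have hafx : a ∈ T x ∨ f ∈ T x := by
    have h5 := h.cross_miss (Q := {d}) hxv hxy h1 h2 h3 h4 (hd.mono fun y' hy' =>
      hy'.mono fun q hq => by rintro i rfl; exact hq)
    have h6 : ∃ᶠ x' in 𝓝[sphere v 1] x, a ∈ T x' ∨ f ∈ T x' := by
      refine (h5.and_eventually hκ).mono ?_
      rintro x' ⟨h6, h7 | h7 | h7⟩
      · exact Or.inl h7
      · exact absurd h7 (h6 d rfl)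
      · exact Or.inr h7
    rcases frequently_or_distrib.1 h6 with h7 | h7
    · exact Or.inl (hcl a h7)
    · exact Or.inr (hcl f h7)
  have hyx : dist y x = 1 := by rw [dist_comm]; exact hxy
  have key : ∀ t : Fin k, t ∈ T p → T y ⊆ insert t (T x) → False := by
    intro t ht hsub
    rcases h.lemmaX (u := x) (p := y) (v := p) (t := t) hyx hx3 hsub hyp (h.sub p ht) with h5 | h5
    · exact h3 h5.symm
    · exact h4 (by rw [add_comm]; exact h5)
  rcases hafx with h5 | h5
  · refine key f hfp fun i hi => ?_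
    rcases hTy hi with rfl | rfl | rfl
    · exact Or.inr h5
    · exact Or.inr hdx
    · exact Or.inl rfl
  · refine key a hap fun i hi => ?_
    rcases hTy hi with rfl | rfl | rfl
    · exact Or.inl rfl
    · exact Or.inr hdx
    · exact Or.inr h5

/-- the norm of the difference of two points near the two ends of a lens -/
theorem lens_aux {ψ s : ℝ} (hψ : 0 < ψ) (hψ2 : ψ < Real.pi) (hs : 0 < s)
    (hs2 : s < Real.pi) : 0 < 1 + Real.cos (ψ - s) - Real.cos ψ - Real.cos s := by
  have hpi := Real.pi_pos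
  have e1 : ψ - s = 2 * ((ψ - s) / 2) := by ring
  have e : 1 + Real.cos (ψ - s) - Real.cos ψ - Real.cos s =
      4 * Real.sin (ψ / 2) * Real.sin (s / 2) * Real.cos ((ψ - s) / 2) := by
    have a1 : Real.cos (ψ - s) = 2 * Real.cos ((ψ - s) / 2) ^ 2 - 1 := by
      rw [← Real.cos_two_mul, mul_div_cancel₀ _ (two_ne_zero : (2 : ℝ) ≠ 0)]
    have a2 : Real.cos ψ + Real.cos s = 2 * Real.cos ((ψ + s) / 2) * Real.cos ((ψ - s) / 2) :=
      Real.cos_add_cos ψ s
    have a3 : Real.cos ((ψ - s) / 2) - Real.cos ((ψ + s) / 2) =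
        2 * Real.sin (ψ / 2) * Real.sin (s / 2) := by
      have b1 : (ψ - s) / 2 = ψ / 2 - s / 2 := by ring
      have b2 : (ψ + s) / 2 = ψ / 2 + s / 2 := by ring
      rw [b1, b2, Real.cos_sub, Real.cos_add]; ring
    linear_combination a1 - a2 + 2 * Real.cos ((ψ - s) / 2) * a3
  rw [e]
  have h1 : 0 < Real.sin (ψ / 2) := Real.sin_pos_of_pos_of_lt_pi (by linarith) (by linarith)
  have h2 : 0 < Real.sin (s / 2) := Real.sin_pos_of_pos_of_lt_pi (by linarith) (by linarith)
  have h3 : 0 < Real.cos ((ψ - s) / 2) :=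
    Real.cos_pos_of_mem_Ioo ⟨by linarith, by linarith⟩
  positivity

theorem cis_re324 (t : ℝ) : (cis t).re = Real.cos t := by
  rw [cis, Complex.exp_ofReal_mul_I_re]

theorem cis_im324 (t : ℝ) : (cis t).im = Real.sin t := by
  rw [cis, Complex.exp_ofReal_mul_I_im]

theorem cis_four (A B C D : ℝ) : ‖cis A - cis B + (cis C - cis D)‖ ^ 2 =
    4 - 2 * Real.cos (A - B) + 2 * Real.cos (A - C) - 2 * Real.cos (A - D)
      - 2 * Real.cos (B - C) + 2 * Real.cos (B - D) - 2 * Real.cos (C - D) := by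
  rw [Complex.sq_norm, Complex.normSq_apply]
  simp only [Complex.sub_re, Complex.sub_im, Complex.add_re, Complex.add_im, cis_re324, cis_im324,
    Real.cos_sub]
  linear_combination Real.sin_sq_add_cos_sq A + Real.sin_sq_add_cos_sq B +
    Real.sin_sq_add_cos_sq C + Real.sin_sq_add_cos_sq D

/-- the end `w` of the arc is outside the disc of `y` -/
theorem lens_far {z : ℂ} {τ σ o s : ℝ} (ho : o = 1 ∨ o = -1)
    (hφ1 : Real.pi / 3 < o * (σ - τ)) (hφ2 : o * (σ - τ) < 4 * Real.pi / 3) (hs : 0 < s)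
    (hs2 : s < Real.pi / 3) :
    1 < dist (z - cis τ + cis (τ - o * (Real.pi / 3))) (z - cis σ + cis (σ - o * s)) := by
  have hpi := Real.pi_pos
  have haux := lens_aux (ψ := o * (σ - τ) - Real.pi / 3) (s := s) (by linarith) (by linarith) hs
    (by linarith)
  have hsq : dist (z - cis τ + cis (τ - o * (Real.pi / 3))) (z - cis σ + cis (σ - o * s)) ^ 2 =
      3 + 2 * Real.cos (o * (σ - τ) - Real.pi / 3 - s)
        - 2 * Real.cos (o * (σ - τ) - Real.pi / 3) - 2 * Real.cos s := by
    have e : z - cis τ + cis (τ - o * (Real.pi / 3)) - (z - cis σ + cis (σ - o * s)) =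
        cis (τ - o * (Real.pi / 3)) - cis τ + (cis σ - cis (σ - o * s)) := by ring
    rw [dist_eq_norm, e, cis_four]
    obtain ⟨φ, hφ⟩ : ∃ φ, φ = o * (σ - τ) := ⟨_, rfl⟩
    have c3 : Real.cos (Real.pi / 3) = 1 / 2 := Real.cos_pi_div_three
    have t : ∀ α : ℝ, Real.cos α = Real.cos (α + Real.pi / 3) + Real.cos (α - Real.pi / 3) := by
      intro α; rw [Real.cos_add, Real.cos_sub, c3]; ring
    have hcos : ∀ a b : ℝ, (a = b ∨ a = -b) → Real.cos a = Real.cos b := by
      rintro a b (rfl | rfl)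
      · rfl
      · exact Real.cos_neg b
    have k1 : Real.cos (τ - o * (Real.pi / 3) - τ) = 1 / 2 := by
      rw [← c3]; apply hcos; rcases ho with rfl | rfl
      · right; ring
      · left; ring
    have k2 : Real.cos (τ - o * (Real.pi / 3) - σ) = Real.cos (φ + Real.pi / 3) := by
      apply hcos; rw [hφ]; rcases ho with rfl | rfl
      · right; ring
      · left; ring
    have k3 : Real.cos (τ - o * (Real.pi / 3) - (σ - o * s)) =
        Real.cos ((φ - s) + Real.pi / 3) := by
      apply hcos; rw [hφ]; rcases ho with rfl | rfl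
      · right; ring
      · left; ring
    have k4 : Real.cos (τ - σ) = Real.cos φ := by
      apply hcos; rw [hφ]; rcases ho with rfl | rfl
      · right; ring
      · left; ring
    have k5 : Real.cos (τ - (σ - o * s)) = Real.cos (φ - s) := by
      apply hcos; rw [hφ]; rcases ho with rfl | rfl
      · right; ring
      · left; ring
    have k6 : Real.cos (σ - (σ - o * s)) = Real.cos s := by
      apply hcos; rcases ho with rfl | rfl
      · left; ring
      · right; ring
    rw [k1, k2, k3, k4, k5, k6, ← hφ]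
    have k7 : φ - Real.pi / 3 - s = φ - s - Real.pi / 3 := by ring
    rw [k7]
    linear_combination 2 * t (φ - s) - 2 * t φ
  have h1 : 1 < dist (z - cis τ + cis (τ - o * (Real.pi / 3))) (z - cis σ + cis (σ - o * s)) ^ 2 := by
    rw [hsq]; linarith
  nlinarith [dist_nonneg (x := z - cis τ + cis (τ - o * (Real.pi / 3)))
    (y := z - cis σ + cis (σ - o * s))]

/-- two points of a unit circle at an angle less than `π / 3` -/
theorem dist_cis_lt {c : ℂ} {a b : ℝ} (h : |a - b| < Real.pi / 3) :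
    dist (c + cis a) (c + cis b) < 1 := by
  have hpi := Real.pi_pos
  have hsq : dist (c + cis a) (c + cis b) ^ 2 = 2 - 2 * Real.cos (a - b) := by
    have e : c + cis a - (c + cis b) = cis a - cis b := by ring
    rw [dist_eq_norm, e, Complex.sq_norm, Complex.normSq_apply]
    simp only [Complex.sub_re, Complex.sub_im, cis_re324, cis_im324, Real.cos_sub]
    linear_combination Real.sin_sq_add_cos_sq a + Real.sin_sq_add_cos_sq b
  have h1 : 1 / 2 < Real.cos (a - b) := by
    rw [← Real.cos_pi_div_three, ← Real.cos_abs (a - b)]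
    exact Real.cos_lt_cos_of_nonneg_of_le_pi (abs_nonneg _) (by linarith) h
  nlinarith [dist_nonneg (x := c + cis a) (y := c + cis b)]

/-- the points of a unit circle near a given one in the angle coordinate -/
theorem ev_cis {v : ℂ} {θ : ℝ} {q : ℂ → Prop} (h : ∀ᶠ t in 𝓝 θ, q (v + cis t)) :
    ∀ᶠ x in 𝓝[sphere v 1] (v + cis θ), q x := by
  have h0 : cis θ ≠ 0 := fun hc => by have := norm_cis θ; rw [hc, norm_zero] at this; linarith
  have hc : ContinuousAt (fun x : ℂ => θ + ((x - v) / cis θ).arg) (v + cis θ) := by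
    refine continuousAt_const.add ?_
    have h1 : ContinuousAt (fun x : ℂ => (x - v) / cis θ) (v + cis θ) := by fun_prop
    have h2 : (v + cis θ - v) / cis θ = 1 := by rw [add_sub_cancel_left, div_self h0]
    have h3 : ContinuousAt Complex.arg ((v + cis θ - v) / cis θ) := by
      rw [h2]; exact Complex.continuousAt_arg Complex.one_mem_slitPlane
    exact ContinuousAt.comp (f := fun x : ℂ => (x - v) / cis θ) h3 h1
  have hv : θ + ((v + cis θ - v) / cis θ).arg = θ := by
    rw [add_sub_cancel_left, div_self h0, Complex.arg_one, add_zero]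
  have h4 : ∀ᶠ x in 𝓝 (v + cis θ), q (v + cis (θ + ((x - v) / cis θ).arg)) := by
    have h5 : Tendsto (fun x : ℂ => θ + ((x - v) / cis θ).arg) (𝓝 (v + cis θ)) (𝓝 θ) := by
      have h6 := hc.tendsto
      rwa [hv] at h6
    exact h5.eventually h
  filter_upwards [mem_nhdsWithin_of_mem_nhds h4, self_mem_nhdsWithin] with x h5 h6
  have h7 : ‖(x - v) / cis θ‖ = 1 := by
    rw [norm_div, norm_cis, div_one, ← dist_eq_norm]; exact h6
  have h8 : v + cis (θ + ((x - v) / cis θ).arg) = x := by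
    have h9 : cis (θ + ((x - v) / cis θ).arg) = cis θ * ((x - v) / cis θ) := by
      rw [cis, cis]
      push_cast
      rw [add_mul, Complex.exp_add]
      congr 1
      have := Complex.norm_mul_exp_arg_mul_I ((x - v) / cis θ)
      rw [h7, Complex.ofReal_one, one_mul] at this
      exact this
    rw [h9, mul_div_cancel₀ _ h0]; ring
  rwa [h8] at h5

/-- **two special ends of one circle.**  `S(z)` has the points `v = z - cis τ`, `p = z - cis σ`.
`κ` = the arc of `S(v)` of length `π / 3` starting at `z`, `y` a point of the arc of `S(p)` of length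
`π / 3` starting at `z` on the same side.  If `y` is the end towards `z` of an `af`-arc of `S(p)`,
with `d` on the side of `z`, and the points of `κ` have one of the colours `a, d, f`, then
contradiction. -/
theorem Irr.lens_kill (h : Irr U T) {z : ℂ} {τ σ o s : ℝ} (ho : o = 1 ∨ o = -1)
    (hφ1 : Real.pi / 3 < o * (σ - τ)) (hφ2 : o * (σ - τ) < Real.pi) (hs : 0 < s)
    (hs2 : s < Real.pi / 3) {a d f : Fin k}
    (hTy : T (z - cis σ + cis (σ - o * s)) ⊆ {a, d, f})
    (hap : a ∈ T (z - cis σ)) (hfp : f ∈ T (z - cis σ))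
    (hS : ∃ᶠ y' in 𝓝[sphere (z - cis σ) 1] (z - cis σ + cis (σ - o * s)),
      ∀ᶠ q in 𝓝[sphere (z - cis σ) 1] y', a ∈ T q ∧ f ∈ T q)
    (hd : ∃ᶠ y' in 𝓝[sphere (z - cis σ) 1] (z - cis σ + cis (σ - o * s)),
      ∀ᶠ q in 𝓝[sphere (z - cis σ) 1] y', d ∈ T q)
    (hκ : ∀ t ∈ Ioo 0 (Real.pi / 3), (a ∈ T (z - cis τ + cis (τ - o * t)) ∨
      d ∈ T (z - cis τ + cis (τ - o * t)) ∨ f ∈ T (z - cis τ + cis (τ - o * t))) ∧
      (T (z - cis τ + cis (τ - o * t))).ncard ≤ 3) : False := by
  have hpi := Real.pi_pos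
  set v : ℂ := z - cis τ with hv
  set p : ℂ := z - cis σ with hp
  set y : ℂ := p + cis (σ - o * s) with hy
  have hzv : z = v + cis τ := by rw [hv]; ring
  have hzp : z = p + cis σ := by rw [hp]; ring
  have hoa : |o| = 1 := by rcases ho with rfl | rfl <;> norm_num
  -- distances
  have d0 : dist z y < 1 := by
    rw [hzp, hy]
    refine dist_cis_lt ?_
    have : σ - (σ - o * s) = o * s := by ring
    rw [this, abs_mul, hoa, one_mul, abs_of_pos hs]; exact hs2
  have d1 : 1 < dist (v + cis (τ - o * (Real.pi / 3))) y := by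
    have := lens_far (z := z) (τ := τ) (σ := σ) ho hφ1 (by linarith) hs hs2
    exact this
  -- a point of the arc at distance one from `y`
  obtain ⟨t, ht, ht1⟩ : ∃ t ∈ Ioo 0 (Real.pi / 3), dist (v + cis (τ - o * t)) y = 1 := by
    have hc : ContinuousOn (fun t : ℝ => dist (v + cis (τ - o * t)) y) (Icc 0 (Real.pi / 3)) :=
      ((continuous_const.add (continuous_cis.comp (by fun_prop))).dist
        continuous_const).continuousOn
    have hm : (1 : ℝ) ∈ Ioo (dist (v + cis (τ - o * 0)) y)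
        (dist (v + cis (τ - o * (Real.pi / 3))) y) := by
      refine ⟨?_, d1⟩
      rw [mul_zero, sub_zero, ← hzv]; exact d0
    exact intermediate_value_Ioo (by positivity) hc hm
  set x : ℂ := v + cis (τ - o * t) with hx
  have hxv : dist x v = 1 := dist_add_cis v _
  have hyp : dist y p = 1 := dist_add_cis p _
  have hxz : dist x z < 1 := by
    rw [hzv, hx]
    refine dist_cis_lt ?_
    have : τ - o * t - τ = -(o * t) := by ring
    rw [this, abs_neg, abs_mul, hoa, one_mul, abs_of_pos ht.1]; exact ht.2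
  have hzp1 : dist z p = 1 := by rw [hzp]; exact dist_add_cis p _
  have hzv1 : dist z v = 1 := by rw [hzv]; exact dist_add_cis v _
  have hxp2 : dist x p < 2 := by
    have := dist_triangle x z p
    linarith
  have hvy2 : dist v y < 2 := by
    have := dist_triangle v z y
    rw [dist_comm v z] at this
    linarith
  refine h.cross_kill (v := v) (p := p) (y := y) (x := x) (a := a) (d := d) (f := f) hyp hxv ht1
    ?_ ?_ ?_ ?_ hTy (hκ t ht).2 hap hfp hS hd ?_
  · rintro hvy
    rw [← hvy, hzv1] at d0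
    exact lt_irrefl _ d0
  · intro hc
    -- then `|v - y| = 2`
    have e : v - y = 2 * (x - y) := by linear_combination hc
    have : dist v y = 2 := by
      rw [dist_eq_norm, e, norm_mul, ← dist_eq_norm, ht1]; norm_num
    linarith
  · intro hc
    rw [hc, dist_comm, hzp1] at hxz
    exact lt_irrefl _ hxz
  · intro hc
    have e : x - p = 2 * (y - p) := by linear_combination hc
    have : dist x p = 2 := by
      rw [dist_eq_norm, e, norm_mul, ← dist_eq_norm, hyp]; norm_num
    linarith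
  · -- near `x` on `S(v)` we stay on the arc
    have : ∀ᶠ x' in 𝓝[sphere v 1] x, ∃ t' ∈ Ioo 0 (Real.pi / 3), x' = v + cis (τ - o * t') := by
      refine ev_cis ?_
      have hc : Tendsto (fun w : ℝ => o * (τ - w)) (𝓝 (τ - o * t)) (𝓝 t) := by
        have h5 : Continuous fun w : ℝ => o * (τ - w) := by fun_prop
        have h6 := h5.tendsto (τ - o * t)
        have h7 : o * (τ - (τ - o * t)) = t := by
          rcases ho with rfl | rfl <;> ring
        rwa [h7] at h6
      filter_upwards [hc.eventually (Ioo_mem_nhds ht.1 ht.2)] with w hw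
      refine ⟨_, hw, ?_⟩
      congr 2
      rcases ho with rfl | rfl <;> ring
    filter_upwards [this] with x' hx'
    obtain ⟨t', ht', rfl⟩ := hx'
    exact (hκ t' ht').1

end Vale.Agent.P032.Six
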